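import Vale.Agent.P224.R2.H533.Box

/-!
Columns of boxes with parts and weights: on every segment of a column the negative part is a
combination of given polynomials with natural weights, and so is the positive part.
-/

namespace Vale.Agent.P224.R2.H879

open Vale.Agent.P224.R2.H582 Vale.Agent.P224.R2.H533

/-- sum of lists of polynomials -/
def addLL : List (List ℕ) → List (List ℕ) → List (List ℕ)
  | [], b => b
  | a :: l, [] => a :: l
  | a :: l, b :: r => addL a b :: addLL l r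

/-- multiple of a list of polynomials -/
def smulLL (k : ℕ) : List (List ℕ) → List (List ℕ)
  | [] => []
  | a :: l => smulL k a :: smulLL k l

/-- combination with weights -/
def lin : List ℕ → List (List (List ℕ)) → List (List ℕ)
  | [], _ => []
  | _, [] => []
  | 0 :: ws, _ :: es => lin ws es
  | (w + 1) :: ws, e :: es => addLL (smulLL (w + 1) e) (lin ws es)

/-- evaluation of a list of lists of lists of numbers before use -/
def fLLL : List (List (List ℕ)) → (List (List (List ℕ)) → Bool) → Bool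
  | [], f => f []
  | a :: l, f => fLL a fun a' => fLLL l fun l' => f (a' :: l')

/-- the value of a combination -/
noncomputable def linR : List ℕ → List (List (List (List ℕ))) → ℝ → ℝ → ℝ → ℝ
  | [], _, _, _, _ => 0
  | _, [], _, _, _ => 0
  | w :: ws, N :: Ns, x, y, φ => w * evR3 N x y φ + linR ws Ns x y φ

/-- values of the parts at `x` -/
def evNs (l : List (List (List (List ℕ)))) (x : ℕ) : List (List (List ℕ)) := l.map fun r => evN r x

/-- a segment of a column: the weight of the part in `x`, the weights of the negative and of the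
mixed positive parts, the nodes of `y` -/
structure Seg where
  w0 : ℕ
  ws : List ℕ
  wm : List ℕ
  ys : List ℕ

/-- the parts of the inequality: the negative ones, the positive one in `x`, the mixed positive
ones -/
structure HP where
  s : ℕ
  Ns : List (List (List (List ℕ)))
  PX : List (List ℕ)
  Ms : List (List (List (List ℕ)))

/-- the segments of a column, from `y0` on -/
def segsOK (nodes : List (ℕ × ℕ)) (A1 A2 B1 : List (List (List ℕ))) (Pm E P2 : List ℕ)
    (yt : ℕ) : ℕ → List Seg → Bool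
  | y0, [] => Nat.ble yt y0
  | y0, g :: l =>
    (fLL (lin g.ws A1) fun N1 => fLL (lin g.ws A2) fun N2 => fLL (lin g.wm B1) fun Q =>
      fLL (derX Q) fun Q' => fL (smulL g.w0 Pm) fun P1 => fL (smulL g.w0 E) fun E1 =>
      fL (smulL g.w0 P2) fun P2 => HD.boxes nodes Q Q' N1 N2 P1 E1 P2 [] y0 g.ys) &&
    segsOK nodes A1 A2 B1 Pm E P2 yt (g.ys.getLastD y0) l

namespace HP

variable (H : HP)

/-- a column -/
def colOK (nodes : List (ℕ × ℕ)) (x1 x2 y0 : ℕ) (gs : List Seg) : Bool :=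
  fLLL (evNs H.Ns x1) fun A1 => fLLL (evNs H.Ns x2) fun A2 => fLLL (evNs H.Ms x1) fun B1 =>
  fL (evX H.PX ((x1 + x2) / 2)) fun Pm => fL (evX (derX H.PX) ((x1 + x2) / 2)) fun Dm =>
  fL (smulL ((x1 + x2) / 2 - x1) Dm) fun E =>
  fL (addL Pm (smulL (x2 - (x1 + x2) / 2) Dm)) fun P2 =>
    segsOK nodes A1 A2 B1 Pm E P2 (4 * (H.s + x2)) y0 gs

/-- all the columns, from `x1` on -/
def cols (nodes : List (ℕ × ℕ)) (X0 Y0 : ℕ) : ℕ → List (ℕ × ℕ × List Seg) → ℕ → Bool
  | x1, [], xt => Nat.beq x1 xt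
  | x1, (x2, y0, gs) :: l, xt =>
    Nat.blt x1 x2 && (Nat.beq y0 0 || (Nat.ble x2 X0 && Nat.ble y0 Y0)) &&
    H.colOK nodes x1 x2 y0 gs && cols nodes X0 Y0 x2 l xt

end HP

/-! ### values -/

theorem fLLL_eq (l : List (List (List ℕ))) (f : List (List (List ℕ)) → Bool) :
    fLLL l f = f l := by
  induction l generalizing f with
  | nil => rfl
  | cons a l ih => simp only [fLLL, fLL_eq, ih]

theorem evR_addLL (a b : List (List ℕ)) (y φ : ℝ) :
    evR (addLL a b) y φ = evR a y φ + evR b y φ := by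
  induction a generalizing b with
  | nil => simp [addLL, evR]
  | cons a l ih =>
    cases b with
    | nil => simp [addLL, evR]
    | cons b r =>
      simp only [addLL, evR, ih, ev_addL]
      ring

theorem evR_smulLL (k : ℕ) (a : List (List ℕ)) (y φ : ℝ) :
    evR (smulLL k a) y φ = k * evR a y φ := by
  induction a with
  | nil => simp [smulLL, evR]
  | cons a l ih =>
    simp only [smulLL, evR, ih, ev_smulL]
    ring

theorem evR_lin (ws : List ℕ) (Ns : List (List (List (List ℕ)))) (x : ℕ) (y φ : ℝ) :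
    evR (lin ws (evNs Ns x)) y φ = linR ws Ns x y φ := by
  induction ws generalizing Ns with
  | nil => simp [lin, linR, evR]
  | cons w ws ih =>
    cases Ns with
    | nil => simp [lin, linR, evR, evNs]
    | cons N Ns =>
      have e : evNs (N :: Ns) x = evN N x :: evNs Ns x := rfl
      rw [e]
      cases w with
      | zero => simp [lin, linR, ih]
      | succ w => rw [lin, linR, evR_addLL, evR_smulLL, ih, evR3_nat]

theorem linR_chord (ws : List ℕ) (Ns : List (List (List (List ℕ)))) {a b s t y φ : ℝ}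
    (ha : 0 ≤ a) (hb : 0 ≤ b) (hs : 0 ≤ s) (ht : 0 ≤ t) (hst : s + t = 1) (hy : 0 ≤ y)
    (hφ : 0 ≤ φ) : linR ws Ns (s * a + t * b) y φ ≤ s * linR ws Ns a y φ + t * linR ws Ns b y φ := by
  induction ws generalizing Ns with
  | nil => simp [linR]
  | cons w ws ih =>
    cases Ns with
    | nil => simp [linR]
    | cons N Ns =>
      simp only [linR]
      have h1 := mul_le_mul_of_nonneg_left (evR3_chord N ha hb hs ht hst hy hφ)
        (Nat.cast_nonneg (α := ℝ) w)
      have h2 := ih Ns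
      linarith

theorem ev_mono (l : List ℕ) {x y : ℝ} (hx : 0 ≤ x) (hxy : x ≤ y) : ev l x ≤ ev l y := by
  induction l with
  | nil => simp [ev]
  | cons a l ih =>
    simp only [ev]
    have h1 := ev_nonneg l hx
    nlinarith [mul_le_mul hxy ih h1 (hx.trans hxy)]

theorem evR_nonneg (l : List (List ℕ)) {x φ : ℝ} (hx : 0 ≤ x) (hφ : 0 ≤ φ) : 0 ≤ evR l x φ := by
  induction l with
  | nil => simp [evR]
  | cons r l ih =>
    simp only [evR]
    have := ev_nonneg r hx
    positivity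

theorem evR_mono (l : List (List ℕ)) {x x' φ : ℝ} (hx : 0 ≤ x) (hxx : x ≤ x') (hφ : 0 ≤ φ) :
    evR l x φ ≤ evR l x' φ := by
  induction l with
  | nil => simp [evR]
  | cons r l ih =>
    simp only [evR]
    exact add_le_add (ev_mono r hx hxx) (mul_le_mul_of_nonneg_left ih hφ)

/-- coefficients of `y` at a larger `x` -/
theorem evR3_mono (l : List (List (List ℕ))) {x x' y φ : ℝ} (hx : 0 ≤ x) (hxx : x ≤ x')
    (hy : 0 ≤ y) (hφ : 0 ≤ φ) : evR3 l x y φ ≤ evR3 l x' y φ := by
  induction l with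
  | nil => simp [evR3]
  | cons r l ih =>
    simp only [evR3]
    exact add_le_add (evR_mono r hx hxx hy) (mul_le_mul_of_nonneg_left ih hφ)

theorem linR_mono (ws : List ℕ) (Ns : List (List (List (List ℕ)))) {x x' y φ : ℝ} (hx : 0 ≤ x)
    (hxx : x ≤ x') (hy : 0 ≤ y) (hφ : 0 ≤ φ) : linR ws Ns x y φ ≤ linR ws Ns x' y φ := by
  induction ws generalizing Ns with
  | nil => simp [linR]
  | cons w ws ih =>
    cases Ns with
    | nil => simp [linR]
    | cons N Ns =>
      simp only [linR]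
      have h1 := mul_le_mul_of_nonneg_left (evR3_mono N hx hxx hy hφ)
        (Nat.cast_nonneg (α := ℝ) w)
      have h2 := ih Ns
      linarith

/-- the inequality of a segment -/
def HP.le (H : HP) (g : Seg) (x y φ : ℝ) : Prop :=
  linR g.ws H.Ns x y φ ≤ g.w0 * evR H.PX x φ + linR g.wm H.Ms x y φ

theorem segsOK_sound (hU : UniSound) (H : HP) {nodes : List (ℕ × ℕ)} {x1 x2 yt : ℕ}
    (hx : x1 < x2) {s t x y φ : ℝ} (hs : 0 ≤ s) (ht : 0 ≤ t) (hst : s + t = 1)
    (hxx : s * x1 + t * x2 = x) (hφ : 0 ≤ φ) (gs : List Seg) (y0 : ℕ)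
    (h : segsOK nodes (evNs H.Ns x1) (evNs H.Ns x2) (evNs H.Ms x1) (evX H.PX ((x1 + x2) / 2))
      (smulL ((x1 + x2) / 2 - x1) (evX (derX H.PX) ((x1 + x2) / 2)))
      (addL (evX H.PX ((x1 + x2) / 2))
        (smulL (x2 - (x1 + x2) / 2) (evX (derX H.PX) ((x1 + x2) / 2)))) yt y0 gs = true)
    (hy0 : (y0 : ℝ) ≤ y) (hy : y < yt) : ∃ g ∈ gs, H.le g x y φ := by
  induction gs generalizing y0 with
  | nil =>
    rw [segsOK] at h
    have h1 : (yt : ℝ) ≤ y0 := Nat.cast_le.2 (Nat.le_of_ble_eq_true h)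
    exact absurd hy (not_lt.2 (h1.trans hy0))
  | cons g gs ih =>
    rw [segsOK, Bool.and_eq_true] at h
    obtain ⟨h1, h2⟩ := h
    rcases le_or_gt y ((g.ys.getLastD y0 : ℕ) : ℝ) with hyy | hyy
    · rcases eq_or_ne g.ys [] with he | hys
      · rw [he] at hyy h1 h2
        simp only [List.getLastD_nil] at hyy h2
        rcases ih y0 h2 hy0 with ⟨g', hg', h3⟩
        exact ⟨g', List.mem_cons_of_mem _ hg', h3⟩
      refine ⟨g, List.mem_cons_self, ?_⟩
      simp only [fL_eq, fLL_eq] at h1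
      have h0 : (0 : ℝ) ≤ x1 := Nat.cast_nonneg _
      have h0' : (0 : ℝ) ≤ x2 := Nat.cast_nonneg _
      have hy00 : (0 : ℝ) ≤ y := (Nat.cast_nonneg y0).trans hy0
      have k1 := boxes_sound hU rfl g.ys y0 h1 hys hs ht hst hφ hy0 hyy
      have k2 := linR_chord g.ws H.Ns h0 h0' hs ht hst hy00 hφ
      have k3 := evR_tangent_ends H.PX (a := x1) (b := x2) (m := (x1 + x2) / 2) (by omega)
        (by omega) hs ht hst hφ
      have hx1 : (x1 : ℝ) ≤ x := by
        rw [← hxx]
        have h4 : (x1 : ℝ) < x2 := Nat.cast_lt.2 hx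
        have h5 : s = 1 - t := by linarith
        subst h5
        nlinarith
      have k4 := linR_mono g.wm H.Ms h0 hx1 hy00 hφ
      rw [hxx] at k2 k3
      rw [evR_lin, evR_lin, evR_lin] at k1
      simp only [ev_smulL] at k1 k3
      have h5 : ev ([] : List ℕ) φ = 0 := rfl
      rw [h5] at k1
      have k5 := mul_le_mul_of_nonneg_left k3 (Nat.cast_nonneg (α := ℝ) g.w0)
      unfold HP.le
      linarith
    · rcases ih _ h2 hyy.le with ⟨g', hg', h3⟩
      exact ⟨g', List.mem_cons_of_mem _ hg', h3⟩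

/-- **Soundness of a column.** -/
theorem colOK_sound (hU : UniSound) (H : HP) {nodes : List (ℕ × ℕ)} {x1 x2 y0 : ℕ}
    {gs : List Seg} (h : H.colOK nodes x1 x2 y0 gs = true) (hx : x1 < x2) {x y φ : ℝ}
    (hx1 : (x1 : ℝ) ≤ x) (hx2 : x < x2) (hy0 : (y0 : ℝ) ≤ y) (hy : y ≤ 4 * (H.s + x))
    (hφ : 0 ≤ φ) : ∃ g ∈ gs, H.le g x y φ := by
  obtain ⟨s, t, hs, ht, hst, hxx⟩ := exists_weights (Nat.cast_lt (α := ℝ).2 hx) hx1 hx2.le
  simp only [HP.colOK, fL_eq, fLLL_eq] at h
  refine segsOK_sound hU H hx hs ht hst hxx hφ gs y0 h hy0 ?_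
  push_cast
  linarith

/-- **Soundness of the columns**, outside the box at the origin. -/
theorem cols_sound (hU : UniSound) (H : HP) {nodes : List (ℕ × ℕ)} {X0 Y0 : ℕ}
    (l : List (ℕ × ℕ × List Seg)) (x1 xt : ℕ) (h : H.cols nodes X0 Y0 x1 l xt = true) {x y φ : ℝ}
    (hx1 : (x1 : ℝ) ≤ x) (hxt : x < xt) (hy : 0 ≤ y) (hy4 : y ≤ 4 * (H.s + x)) (hφ : 0 ≤ φ) :
    (x ≤ X0 ∧ y ≤ Y0) ∨ ∃ c ∈ l, ∃ g ∈ c.2.2, H.le g x y φ := by
  induction l generalizing x1 with
  | nil =>
    rw [HP.cols, Nat.beq_eq] at h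
    subst h
    exact absurd hxt (not_lt.2 hx1)
  | cons c l ih =>
    obtain ⟨x2, y0, gs⟩ := c
    simp only [HP.cols, Bool.and_eq_true, Bool.or_eq_true] at h
    obtain ⟨⟨⟨h1, h2⟩, h4⟩, h5⟩ := h
    have h1' : x1 < x2 := by simpa [Nat.blt_eq] using h1
    rcases lt_or_ge x (x2 : ℝ) with hx | hx
    · rcases le_or_gt (y0 : ℝ) y with hy0 | hy0
      · obtain ⟨g, hg, h6⟩ := colOK_sound hU H h4 h1' hx1 hx hy0 hy4 hφ
        exact Or.inr ⟨_, List.mem_cons_self, g, hg, h6⟩
      · left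
        rcases h2 with h2 | h2
        · have h7 : y0 = 0 := Nat.eq_of_beq_eq_true h2
          subst h7
          rw [Nat.cast_zero] at hy0
          exact absurd hy (not_le.2 hy0)
        · have h7 : (x2 : ℝ) ≤ X0 := Nat.cast_le.2 (Nat.le_of_ble_eq_true h2.1)
          have h8 : (y0 : ℝ) ≤ Y0 := Nat.cast_le.2 (Nat.le_of_ble_eq_true h2.2)
          exact ⟨hx.le.trans h7, hy0.le.trans h8⟩
    · rcases ih x2 h5 hx with h6 | ⟨c, hc, g, hg, h6⟩
      · exact Or.inl h6
      · exact Or.inr ⟨c, List.mem_cons_of_mem _ hc, g, hg, h6⟩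

end Vale.Agent.P224.R2.H879
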